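import Vale.Agent.P126.Main

namespace Vale.Agent.Results.P126.Disproof

open Vale.Agent.P126

/-- The duality conjecture for metric entropy is false. -/
theorem result : ¬ ∃ a b : ℝ, 1 ≤ a ∧ 1 ≤ b ∧ ∀ n : ℕ, 1 ≤ n →
    ∀ K L : Set (EuclideanSpace ℝ (Fin n)), IsSymmBody K → IsSymmBody L →
      1 / b * Real.log (coverNum (polarBody L) (dilate a (polarBody K))) ≤
        Real.log (coverNum K L) ∧
      Real.log (coverNum K L) ≤
        b * Real.log (coverNum (polarBody L) (dilate a⁻¹ (polarBody K))) := by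
  rintro ⟨a, b, ha, hb, h⟩
  obtain ⟨n, hn, K, L, hK, hL, hlt⟩ := counterexample ha hb
  exact absurd (h n hn K L hK hL).2 (not_le.2 hlt)

end Vale.Agent.Results.P126.Disproof
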